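import Vale.Agent.P372.H507.Inst
import Vale.Agent.P372.H897.SF

/-!
# The operator in the form of the final assembly
-/

set_option autoImplicit false
set_option linter.unusedSectionVars false

namespace Vale.Agent.P372.H507

open Matrix Kronecker
open scoped ComplexOrder
open Vale.Agent.P372.Fm

variable {m : ℕ}

theorem ap_lin {I : Type} [Fintype I] (t : I → I → I → I → ℂ) (c d : ℂ) (X Y : Matrix I I ℂ) :
    ap t (c • X + d • Y) = c • ap t X + d • ap t Y := by
  ext i j
  have h1 : (c • ap t X + d • ap t Y) i j = c * ap t X i j + d * ap t Y i j := rfl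
  rw [h1]
  simp only [ap, Finset.mul_sum, ← Finset.sum_add_distrib]
  refine Finset.sum_congr rfl fun p _ => Finset.sum_congr rfl fun q _ => ?_
  rw [Matrix.add_apply, Matrix.smul_apply, Matrix.smul_apply, smul_eq_mul, smul_eq_mul]
  ring

/-- the two forms of the action of a kernel agree -/
theorem ap_eq {I : Type} [Fintype I] [DecidableEq I] (t : I → I → I → I → ℂ) (X : Matrix I I ℂ) :
    H897.ap t X = ap t X := by
  ext i j
  unfold H897.ap ap
  refine Finset.sum_congr rfl fun p _ => Finset.sum_congr rfl fun q _ => mul_comm _ _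

theorem kk_eq : kk m = H897.kt (tk m) (tk m) := rfl

theorem opR_eq : opR = (2 / 3 : ℂ) • 1 + (1 / 3 : ℂ) • ap (kk 3600) opRh := by
  unfold opR
  rw [ap_lin, ap_kk_one]

/-- the second socket of the assembly, with the action of 399 -/
theorem socketE : ∃ (m : ℕ) (Rh : Matrix (V m × V m) (V m × V m) ℂ), Rh.PosSemidef ∧
    ((2 : ℂ) • 1 - Rh).PosSemidef ∧
    ¬ IsSep ((2 / 3 : ℂ) • 1 + (1 / 3 : ℂ) • ap (kk m) Rh) := by
  refine ⟨3600, opRh, opRh_psd, two_sub_opRh_psd, ?_⟩
  rw [← opR_eq]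
  exact opR_not_isSep

/-- the second socket of the assembly, with the action of 897 -/
theorem socketE' : ∃ (m : ℕ) (Rh : Matrix (V m × V m) (V m × V m) ℂ), Rh.PosSemidef ∧
    ((2 : ℂ) • 1 - Rh).PosSemidef ∧
    ¬ IsSep ((2 / 3 : ℂ) • 1 + (1 / 3 : ℂ) • H897.ap (H897.kt (tk m) (tk m)) Rh) := by
  obtain ⟨m, Rh, h1, h2, h3⟩ := socketE
  refine ⟨m, Rh, h1, h2, ?_⟩
  rw [ap_eq, ← kk_eq]
  exact h3

end Vale.Agent.P372.H507
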