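import Vale.Agent.P372.H507.Sep

/-!
# The operator is not separable
-/

set_option autoImplicit false
set_option linter.unusedSectionVars false

namespace Vale.Agent.P372.H507

open Matrix Kronecker Complex
open scoped ComplexOrder

variable {N : ℕ} {D : Type} [Fintype D] [DecidableEq D] (Z : Cl N D)

/-- the sine: `1 / 60` -/
noncomputable def sn : ℝ := 1 / 60

/-- the cosine -/
noncomputable def cs : ℝ := Real.sqrt (1 - 1 / 3600)

theorem cs_sq : cs ^ 2 = 1 - 1 / 3600 := by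
  unfold cs
  rw [Real.sq_sqrt]
  norm_num

theorem cs_sn : cs ^ 2 + sn ^ 2 = 1 := by
  rw [cs_sq, sn]
  norm_num

theorem cs_nonneg : 0 ≤ cs := Real.sqrt_nonneg _

theorem cs_le_one : cs ≤ 1 := by
  have h := cs_sq
  nlinarith [cs_nonneg]

theorem cs_pow : (1 : ℝ) / 2 ≤ cs ^ (3600 - 1) := by
  have h1 : cs ^ 3600 ≤ cs ^ (3600 - 1) := pow_le_pow_of_le_one cs_nonneg cs_le_one (by norm_num)
  have h2 : cs ^ 3600 = (1 + (-1 / 3600)) ^ 1800 := by
    rw [show (3600 : ℕ) = 2 * 1800 by norm_num, pow_mul, cs_sq]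
    norm_num
  have h3 : 1 + ((1800 : ℕ) : ℝ) * (-1 / 3600) ≤ (1 + (-1 / 3600)) ^ 1800 :=
    one_add_mul_le_pow (by norm_num) 1800
  have h4 : (1 : ℝ) + ((1800 : ℕ) : ℝ) * (-1 / 3600) = 1 / 2 := by norm_num
  rw [← h2, h4] at h3
  exact h3.trans h1

theorem value_gt : (1 : ℝ) < 1 / 27 * 3600 * sn * cs ^ (3600 - 1) := by
  have h := cs_pow
  unfold sn
  nlinarith

namespace Cl

/-- the two thirds of the identity and one third of `Rh` -/
noncomputable def R1 (c s : ℝ) : Matrix (D × D) (D × D) ℂ :=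
  (2 / 3 : ℂ) • 1 + (1 / 3 : ℂ) • Z.Rh c s

theorem trace_R1 (hN : Even N) (c s : ℝ) : (Z.R1 c s).trace = (Fintype.card (D × D) : ℂ) := by
  unfold R1
  rw [trace_add, trace_smul, trace_smul, Z.trace_Rh hN, trace_one, smul_eq_mul, smul_eq_mul]
  ring

theorem trace_R1_q (hN : Even N) (c s : ℝ) (a : Fin N) : (Z.R1 c s * Z.q a).trace =
    (1 / 3 : ℂ) * ((s : ℂ) * (c : ℂ) ^ (N - 1) * (Fintype.card (D × D) : ℂ)) := by
  unfold R1
  rw [Matrix.add_mul, Matrix.smul_mul, Matrix.smul_mul, Matrix.one_mul, trace_add, trace_smul,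
    trace_smul, Z.trace_q hN, trace_mul_comm, Z.trace_q_Rh hN, smul_eq_mul, smul_eq_mul]
  ring

theorem R1_psd (c s : ℝ) (h : c ^ 2 + s ^ 2 = 1) : (Z.R1 c s).PosSemidef := by
  unfold R1
  refine (PosSemidef.one.smul ?_).add ((Z.Rh_psd c s h).smul ?_)
  · rw [Complex.le_def]; norm_num
  · rw [Complex.le_def]; norm_num

/-- a smoothing that multiplies every `q a` by `1 / 9` and fixes `1` leaves an operator that is
not separable -/
theorem not_isSep [Nonempty D] (hN : Even N) (c s : ℝ)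
    (hv : (1 : ℝ) < 1 / 27 * N * s * c ^ (N - 1))
    (TT : Matrix (D × D) (D × D) ℂ → Matrix (D × D) (D × D) ℂ)
    (hself : ∀ X Y, (TT X * Y).trace = (X * TT Y).trace) (h1 : TT 1 = 1)
    (hq : ∀ a, TT (Z.q a) = (1 / 9 : ℂ) • Z.q a) : ¬ IsSep (TT (Z.R1 c s)) := by
  intro h
  have h2 := Z.sep_le h
  have h3 : (TT (Z.R1 c s)).trace = (Fintype.card (D × D) : ℂ) := by
    have := hself (Z.R1 c s) 1
    rw [h1, Matrix.mul_one, Matrix.mul_one, Z.trace_R1 hN] at this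
    exact this
  have h4 : ∀ a, (TT (Z.R1 c s) * Z.q a).trace.re =
      1 / 27 * (s * c ^ (N - 1) * (Fintype.card (D × D) : ℝ)) := by
    intro a
    rw [hself, hq, Matrix.mul_smul, trace_smul, Z.trace_R1_q hN]
    have : (1 / 9 : ℂ) • ((1 / 3 : ℂ) * ((s : ℂ) * (c : ℂ) ^ (N - 1) *
        (Fintype.card (D × D) : ℂ))) =
        ((1 / 27 * (s * c ^ (N - 1) * (Fintype.card (D × D) : ℝ)) : ℝ) : ℂ) := by
      rw [smul_eq_mul]
      push_cast
      ring
    rw [this, Complex.ofReal_re]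
  rw [h3] at h2
  simp only [h4, Finset.sum_const, Finset.card_univ, Fintype.card_fin, nsmul_eq_mul,
    Complex.natCast_re] at h2
  have hc : (0 : ℝ) < (Fintype.card (D × D) : ℝ) := by
    exact_mod_cast Fintype.card_pos
  have h5 : (N : ℝ) * (1 / 27 * (s * c ^ (N - 1) * (Fintype.card (D × D) : ℝ))) =
      (1 / 27 * N * s * c ^ (N - 1)) * (Fintype.card (D × D) : ℝ) := by ring
  rw [h5] at h2
  have h6 := mul_lt_mul_of_pos_right hv hc
  linarith

end Cl

/-- the numbers `3600`, `cs`, `sn` -/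
theorem not_isSep_num {D : Type} [Fintype D] [DecidableEq D] [Nonempty D] (Z : Cl 3600 D)
    (TT : Matrix (D × D) (D × D) ℂ → Matrix (D × D) (D × D) ℂ)
    (hself : ∀ X Y, (TT X * Y).trace = (X * TT Y).trace) (h1 : TT 1 = 1)
    (hq : ∀ a, TT (Z.q a) = (1 / 9 : ℂ) • Z.q a) : ¬ IsSep (TT (Z.R1 cs sn)) := by
  refine Z.not_isSep ⟨1800, rfl⟩ cs sn ?_ TT hself h1 hq
  have h := value_gt
  push_cast
  exact h

end Vale.Agent.P372.H507
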