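import Vale.Agent.P372.TestDefs

/-!
# Anticommuting self-adjoint unitaries and the entangled operator
-/

set_option autoImplicit false
set_option linter.unusedSectionVars false

namespace Vale.Agent.P372.H507

open Matrix Kronecker Complex
open scoped ComplexOrder

/-- `N` anticommuting self-adjoint unitaries on `ℂ^D`. -/
structure Cl (N : ℕ) (D : Type) [Fintype D] [DecidableEq D] where
  z : Fin N → Matrix D D ℂ
  herm : ∀ a, (z a)ᴴ = z a
  sq : ∀ a, z a * z a = 1
  anti : ∀ a b, a ≠ b → z a * z b = -(z b * z a)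

variable {N : ℕ} {D : Type} [Fintype D] [DecidableEq D] (Z : Cl N D)

namespace Cl

/-- the product of the generators in a list -/
def pr (l : List (Fin N)) : Matrix D D ℂ := (l.map Z.z).prod

@[simp] theorem pr_nil : Z.pr [] = 1 := rfl

theorem pr_cons (a : Fin N) (l : List (Fin N)) : Z.pr (a :: l) = Z.z a * Z.pr l := by
  simp [pr]

theorem pr_mul_conj (l : List (Fin N)) : Z.pr l * (Z.pr l)ᴴ = 1 := by
  induction l with
  | nil => simp
  | cons a l ih =>
    rw [pr_cons, conjTranspose_mul, Z.herm]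
    calc Z.z a * Z.pr l * ((Z.pr l)ᴴ * Z.z a) = Z.z a * (Z.pr l * (Z.pr l)ᴴ) * Z.z a := by
          simp only [Matrix.mul_assoc]
      _ = 1 := by rw [ih, Matrix.mul_one, Z.sq]

theorem conj_mul_pr (l : List (Fin N)) : (Z.pr l)ᴴ * Z.pr l = 1 :=
  mul_eq_one_comm.mp (Z.pr_mul_conj l)

theorem z_pr_notMem (b : Fin N) (l : List (Fin N)) (h : b ∉ l) :
    Z.z b * Z.pr l = (-1 : ℂ) ^ l.length • (Z.pr l * Z.z b) := by
  induction l with
  | nil => simp
  | cons a l ih =>
    rw [List.mem_cons, not_or] at h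
    rw [pr_cons, ← Matrix.mul_assoc, Z.anti b a h.1, Matrix.neg_mul, Matrix.mul_assoc, ih h.2,
      List.length_cons, pow_succ, Matrix.mul_smul, Matrix.mul_assoc]
    simp

theorem z_pr_mem (b : Fin N) (l : List (Fin N)) (hn : l.Nodup) (h : b ∈ l) :
    Z.z b * Z.pr l = -((-1 : ℂ) ^ l.length • (Z.pr l * Z.z b)) := by
  induction l with
  | nil => simp at h
  | cons a l ih =>
    rw [List.nodup_cons] at hn
    rw [pr_cons, List.length_cons, pow_succ]
    by_cases hab : b = a
    · subst hab
      have e := Z.z_pr_notMem b l hn.1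
      have e2 : Z.pr l * Z.z b = (-1 : ℂ) ^ l.length • (Z.z b * Z.pr l) := by
        rw [e, smul_smul, ← mul_pow]; simp
      have e3 : (-1 : ℂ) ^ l.length * -1 * (-1 : ℂ) ^ l.length = -1 := by
        have : (-1 : ℂ) ^ l.length * (-1 : ℂ) ^ l.length = 1 := by rw [← mul_pow]; simp
        linear_combination -this
      rw [Matrix.mul_assoc (Z.z b) (Z.pr l), e2, Matrix.mul_smul, smul_smul, e3]
      simp
    · rw [List.mem_cons] at h
      have hl : b ∈ l := h.resolve_left hab
      rw [← Matrix.mul_assoc, Z.anti b a hab, Matrix.neg_mul, Matrix.mul_assoc, ih hn.2 hl,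
        Matrix.mul_neg, Matrix.mul_smul, Matrix.mul_assoc]
      simp

/-- all generators except `a` -/
def rest (a : Fin N) : List (Fin N) := (List.finRange N).erase a

/-- commutes with all generators except `a`, anticommutes with `z a` (`N` even) -/
def y (a : Fin N) : Matrix D D ℂ := Z.pr (rest a)

theorem notMem_rest (a : Fin N) : a ∉ rest a := by
  unfold rest
  exact (List.nodup_finRange N).not_mem_erase

theorem mem_rest {a b : Fin N} (h : b ≠ a) : b ∈ rest a := by
  unfold rest
  rw [List.mem_erase_of_ne h]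
  exact List.mem_finRange b

theorem nodup_rest (a : Fin N) : (rest a).Nodup := (List.nodup_finRange N).erase a

theorem length_rest (a : Fin N) : (rest a).length + 1 = N := by
  unfold rest
  rw [List.length_erase_of_mem (List.mem_finRange a), List.length_finRange]
  have := a.pos
  omega

theorem neg_one_pow_rest (hN : Even N) (a : Fin N) : (-1 : ℂ) ^ (rest a).length = -1 := by
  have h := length_rest a
  have : (-1 : ℂ) ^ ((rest a).length + 1) = 1 := by rw [h]; exact hN.neg_one_pow
  rw [pow_succ] at this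
  linear_combination -this

theorem y_anti (hN : Even N) (a : Fin N) : Z.z a * Z.y a = -(Z.y a * Z.z a) := by
  unfold y
  rw [Z.z_pr_notMem a _ (notMem_rest a), neg_one_pow_rest hN]
  simp

theorem y_comm (hN : Even N) {a b : Fin N} (h : b ≠ a) : Z.z b * Z.y a = Z.y a * Z.z b := by
  unfold y
  rw [Z.z_pr_mem b _ (nodup_rest a) (mem_rest h), neg_one_pow_rest hN]
  simp

theorem y_mul_conj (a : Fin N) : Z.y a * (Z.y a)ᴴ = 1 := Z.pr_mul_conj _

theorem conj_mul_y (a : Fin N) : (Z.y a)ᴴ * Z.y a = 1 := Z.conj_mul_pr _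

/-- `q a = z a ⊗ conj (z a)` -/
def q (a : Fin N) : Matrix (D × D) (D × D) ℂ := Z.z a ⊗ₖ (Z.z a)ᵀ

theorem tr_herm (a : Fin N) : ((Z.z a)ᵀ)ᴴ = (Z.z a)ᵀ := by
  ext i j
  have h := congrFun (congrFun (Z.herm a) j) i
  simpa [conjTranspose_apply] using h

theorem q_herm (a : Fin N) : (Z.q a)ᴴ = Z.q a := by
  unfold q
  rw [conjTranspose_kronecker, Z.herm, Z.tr_herm]

theorem q_sq (a : Fin N) : Z.q a * Z.q a = 1 := by
  unfold q
  rw [← mul_kronecker_mul, Z.sq, ← transpose_mul, Z.sq, transpose_one, one_kronecker_one]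

theorem q_comm (a b : Fin N) : Z.q a * Z.q b = Z.q b * Z.q a := by
  by_cases h : a = b
  · rw [h]
  · unfold q
    rw [← mul_kronecker_mul, ← mul_kronecker_mul, Z.anti a b h, ← transpose_mul, ← transpose_mul,
      Z.anti b a (Ne.symm h)]
    ext i j
    simp [kroneckerMap_apply]

/-- the factors of the phase operator -/
noncomputable def fac (c s : ℝ) (a : Fin N) : Matrix (D × D) (D × D) ℂ :=
  (c : ℂ) • 1 + (I * s) • Z.q a

/-- the product of the factors over a list -/
noncomputable def ph (c s : ℝ) (l : List (Fin N)) : Matrix (D × D) (D × D) ℂ :=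
  (l.map (Z.fac c s)).prod

@[simp] theorem ph_nil (c s : ℝ) : Z.ph c s [] = 1 := rfl

theorem ph_cons (c s : ℝ) (a : Fin N) (l : List (Fin N)) :
    Z.ph c s (a :: l) = Z.fac c s a * Z.ph c s l := by
  simp [ph]

/-- the phase operator `∏ a, (c + i s q a)` -/
noncomputable def E (c s : ℝ) : Matrix (D × D) (D × D) ℂ := Z.ph c s (List.finRange N)

/-- `1 + r Im ∏ a, (c + i s q a)` -/
noncomputable def R (r c s : ℝ) : Matrix (D × D) (D × D) ℂ :=
  1 + ((r : ℂ) / (2 * I)) • (Z.E c s - (Z.E c s)ᴴ)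

end Cl

end Vale.Agent.P372.H507
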