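import Vale.Agent.P372.H507.Cl

/-!
# The operators `q a` detect entanglement
-/

set_option autoImplicit false
set_option linter.unusedSectionVars false

namespace Vale.Agent.P372.H507

open Matrix Kronecker Complex
open scoped ComplexOrder

variable {N : ℕ} {D : Type} [Fintype D] [DecidableEq D] (Z : Cl N D)

namespace Cl

/-- commutes with all `q b`, `b ≠ a`, and anticommutes with `q a` -/
noncomputable def U (a : Fin N) : Matrix (D × D) (D × D) ℂ := Z.y a ⊗ₖ (1 : Matrix D D ℂ)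

theorem conj_U (a : Fin N) : Z.U a * (Z.U a)ᴴ = 1 := by
  unfold U
  rw [conjTranspose_kronecker, conjTranspose_one, ← mul_kronecker_mul, y_mul_conj, Matrix.mul_one,
    one_kronecker_one]

theorem U_conj (a : Fin N) : (Z.U a)ᴴ * Z.U a = 1 := mul_eq_one_comm.mp (Z.conj_U a)

theorem q_U (hN : Even N) (a : Fin N) : Z.q a * Z.U a = -(Z.U a * Z.q a) := by
  unfold q U
  rw [← mul_kronecker_mul, ← mul_kronecker_mul, Z.y_anti hN a]
  ext i j
  simp [kroneckerMap_apply]

theorem q_U_ne (hN : Even N) {a b : Fin N} (h : b ≠ a) : Z.q b * Z.U a = Z.U a * Z.q b := by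
  unfold q U
  rw [← mul_kronecker_mul, ← mul_kronecker_mul, Z.y_comm hN h, Matrix.mul_one, Matrix.one_mul]

theorem fac_U (hN : Even N) (c s : ℝ) {a b : Fin N} (h : b ≠ a) :
    Z.fac c s b * Z.U a = Z.U a * Z.fac c s b := by
  unfold fac
  rw [Matrix.add_mul, Matrix.mul_add, Matrix.smul_mul, Matrix.smul_mul, Matrix.mul_smul,
    Matrix.mul_smul, Z.q_U_ne hN h, Matrix.one_mul, Matrix.mul_one]

theorem ph_U (hN : Even N) (c s : ℝ) (a : Fin N) (l : List (Fin N)) (h : a ∉ l) :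
    Z.ph c s l * Z.U a = Z.U a * Z.ph c s l := by
  induction l with
  | nil => simp
  | cons b l ih =>
    rw [List.mem_cons, not_or] at h
    rw [ph_cons, Matrix.mul_assoc, ih h.2, ← Matrix.mul_assoc, Z.fac_U hN c s (Ne.symm h.1),
      Matrix.mul_assoc]

theorem trace_q_mul (hN : Even N) (a : Fin N) (X : Matrix (D × D) (D × D) ℂ)
    (h : X * Z.U a = Z.U a * X) : (Z.q a * X).trace = 0 := by
  have e : (Z.q a * X).trace = -(Z.q a * X).trace := by
    calc (Z.q a * X).trace = (Z.q a * X * (Z.U a * (Z.U a)ᴴ)).trace := by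
          rw [Z.conj_U, Matrix.mul_one]
      _ = (Z.q a * (X * Z.U a) * (Z.U a)ᴴ).trace := by simp only [Matrix.mul_assoc]
      _ = -(Z.U a * (Z.q a * X) * (Z.U a)ᴴ).trace := by
          rw [h, ← Matrix.mul_assoc, Z.q_U hN, Matrix.neg_mul, Matrix.neg_mul, trace_neg]
          simp only [Matrix.mul_assoc]
      _ = -(Z.q a * X).trace := by
          rw [trace_mul_comm, ← Matrix.mul_assoc, Z.U_conj, Matrix.one_mul]
  have h2 : (2 : ℂ) * (Z.q a * X).trace = 0 := by linear_combination e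
  simpa using h2

theorem trace_ph (hN : Even N) (c s : ℝ) (l : List (Fin N)) (hl : l.Nodup) :
    (Z.ph c s l).trace = (c : ℂ) ^ l.length * (Fintype.card (D × D) : ℂ) := by
  induction l with
  | nil => simp [trace_one]
  | cons a l ih =>
    rw [List.nodup_cons] at hl
    rw [ph_cons, fac, Matrix.add_mul, Matrix.smul_mul, Matrix.smul_mul, trace_add, trace_smul,
      trace_smul, Z.trace_q_mul hN a _ (Z.ph_U hN c s a l hl.1), Matrix.one_mul, ih hl.2,
      List.length_cons, pow_succ]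
    simp only [smul_eq_mul]
    ring

theorem trace_q_ph (hN : Even N) (c s : ℝ) (b : Fin N) (l : List (Fin N)) (hl : l.Nodup)
    (hb : b ∈ l) : (Z.q b * Z.ph c s l).trace =
      I * s * (c : ℂ) ^ (l.length - 1) * (Fintype.card (D × D) : ℂ) := by
  induction l with
  | nil => simp at hb
  | cons a l ih =>
    rw [List.nodup_cons] at hl
    rw [ph_cons, fac, Matrix.add_mul, Matrix.smul_mul, Matrix.smul_mul, Matrix.mul_add,
      Matrix.mul_smul, Matrix.mul_smul, trace_add, trace_smul, trace_smul, Matrix.one_mul,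
      List.length_cons, Nat.add_sub_cancel]
    by_cases hab : b = a
    · subst hab
      rw [Z.trace_q_mul hN b _ (Z.ph_U hN c s b l hl.1), ← Matrix.mul_assoc, Z.q_sq,
        Matrix.one_mul, Z.trace_ph hN c s l hl.2]
      simp only [smul_eq_mul]
      ring
    · have hb' : b ∈ l := by
        rw [List.mem_cons] at hb
        exact hb.resolve_left hab
      have h0 : (Z.q b * (Z.q a * Z.ph c s l)).trace = 0 := by
        rw [← Matrix.mul_assoc, Z.q_comm b a, Matrix.mul_assoc]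
        apply Z.trace_q_mul hN
        rw [Matrix.mul_assoc, Z.ph_U hN c s a l hl.1, ← Matrix.mul_assoc, Z.q_U_ne hN hab,
          Matrix.mul_assoc]
      rw [h0, ih hl.2 hb']
      have hlen : l.length - 1 + 1 = l.length := by
        have := List.length_pos_of_mem hb'
        omega
      simp only [smul_eq_mul, mul_zero, add_zero]
      calc (c : ℂ) * (I * s * (c : ℂ) ^ (l.length - 1) * (Fintype.card (D × D) : ℂ))
          = I * s * (c : ℂ) ^ (l.length - 1 + 1) * (Fintype.card (D × D) : ℂ) := by ring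
        _ = _ := by rw [hlen]

theorem trace_q_E (hN : Even N) (c s : ℝ) (b : Fin N) :
    (Z.q b * Z.E c s).trace = I * s * (c : ℂ) ^ (N - 1) * (Fintype.card (D × D) : ℂ) := by
  unfold E
  rw [Z.trace_q_ph hN c s b _ (List.nodup_finRange N) (List.mem_finRange b), List.length_finRange]

theorem trace_E (hN : Even N) (c s : ℝ) :
    (Z.E c s).trace = (c : ℂ) ^ N * (Fintype.card (D × D) : ℂ) := by
  unfold E
  rw [Z.trace_ph hN c s _ (List.nodup_finRange N), List.length_finRange]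

/-- the operator `1 + Im E` -/
noncomputable def Rh (c s : ℝ) : Matrix (D × D) (D × D) ℂ :=
  1 + (1 / (2 * I)) • (Z.E c s - (Z.E c s)ᴴ)

theorem trace_conj_E (hN : Even N) (c s : ℝ) :
    ((Z.E c s)ᴴ).trace = (c : ℂ) ^ N * (Fintype.card (D × D) : ℂ) := by
  rw [trace_conjTranspose, Z.trace_E hN]
  simp

theorem trace_Rh (hN : Even N) (c s : ℝ) : (Z.Rh c s).trace = (Fintype.card (D × D) : ℂ) := by
  unfold Rh
  rw [trace_add, trace_smul, trace_sub, Z.trace_E hN, Z.trace_conj_E hN, trace_one]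
  simp

theorem trace_q (hN : Even N) (b : Fin N) : (Z.q b).trace = 0 := by
  have h := Z.trace_q_mul hN b 1 (by simp)
  rwa [Matrix.mul_one] at h

theorem trace_q_conj_E (hN : Even N) (c s : ℝ) (b : Fin N) :
    (Z.q b * (Z.E c s)ᴴ).trace = -(I * s * (c : ℂ) ^ (N - 1) * (Fintype.card (D × D) : ℂ)) := by
  have h : (Z.q b * (Z.E c s)ᴴ) = (Z.E c s * Z.q b)ᴴ := by
    rw [conjTranspose_mul, Z.q_herm]
  rw [h, trace_conjTranspose, trace_mul_comm, Z.trace_q_E hN]
  simp

theorem trace_q_Rh (hN : Even N) (c s : ℝ) (b : Fin N) :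
    (Z.q b * Z.Rh c s).trace = (s : ℂ) * (c : ℂ) ^ (N - 1) * (Fintype.card (D × D) : ℂ) := by
  unfold Rh
  rw [Matrix.mul_add, Matrix.mul_one, Matrix.mul_smul, Matrix.mul_sub, trace_add, trace_smul,
    trace_sub, Z.trace_q_E hN, Z.trace_q_conj_E hN, Z.trace_q hN, smul_eq_mul]
  have : (I : ℂ) ≠ 0 := I_ne_zero
  field_simp
  ring

/-! ### the bounds of `Rh` -/

theorem half_nonneg' : (0 : ℂ) ≤ 1 / 2 := by
  rw [Complex.le_def]
  norm_num

theorem fac_conj (c s : ℝ) (h : c ^ 2 + s ^ 2 = 1) (a : Fin N) :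
    Z.fac c s a * (Z.fac c s a)ᴴ = 1 := by
  have hc : (c : ℂ) ^ 2 + (s : ℂ) ^ 2 = 1 := by exact_mod_cast h
  have e : (c : ℂ) * c + (I * s * (-I * s)) = 1 := by
    linear_combination hc - (s : ℂ) ^ 2 * I_sq
  have e1 : (Z.fac c s a)ᴴ = (c : ℂ) • 1 + (-I * s) • Z.q a := by
    unfold fac
    rw [conjTranspose_add, conjTranspose_smul, conjTranspose_smul, conjTranspose_one, Z.q_herm]
    simp
  rw [e1, fac, Matrix.add_mul, Matrix.mul_add, Matrix.mul_add]
  simp only [Matrix.smul_mul, Matrix.mul_smul, Matrix.one_mul, Matrix.mul_one, Z.q_sq, smul_smul]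
  ext i j
  simp only [Matrix.add_apply, Matrix.smul_apply, smul_eq_mul]
  linear_combination e * (1 : Matrix (D × D) (D × D) ℂ) i j

theorem ph_conj (c s : ℝ) (h : c ^ 2 + s ^ 2 = 1) (l : List (Fin N)) :
    Z.ph c s l * (Z.ph c s l)ᴴ = 1 := by
  induction l with
  | nil => simp
  | cons a l ih =>
    rw [ph_cons, conjTranspose_mul]
    calc Z.fac c s a * Z.ph c s l * ((Z.ph c s l)ᴴ * (Z.fac c s a)ᴴ)
        = Z.fac c s a * (Z.ph c s l * (Z.ph c s l)ᴴ) * (Z.fac c s a)ᴴ := by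
          simp only [Matrix.mul_assoc]
      _ = 1 := by rw [ih, Matrix.mul_one, Z.fac_conj c s h]

theorem E_conj (c s : ℝ) (h : c ^ 2 + s ^ 2 = 1) : Z.E c s * (Z.E c s)ᴴ = 1 :=
  Z.ph_conj c s h _

theorem Rh_eq (c s : ℝ) (h : c ^ 2 + s ^ 2 = 1) :
    Z.Rh c s = (1 / 2 : ℂ) • ((1 - I • Z.E c s) * (1 - I • Z.E c s)ᴴ) := by
  unfold Rh
  rw [conjTranspose_sub, conjTranspose_one, conjTranspose_smul, Matrix.sub_mul, Matrix.mul_sub,
    Matrix.mul_sub, Matrix.smul_mul, Matrix.mul_smul, Matrix.smul_mul, Matrix.mul_smul,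
    Z.E_conj c s h, Matrix.one_mul, Matrix.mul_one, Matrix.one_mul]
  ext i j
  simp only [Matrix.add_apply, Matrix.smul_apply, Matrix.sub_apply, smul_eq_mul,
    RCLike.star_def, conj_I]
  have hI : (1 : ℂ) / (2 * I) = -I / 2 := by
    have : (I : ℂ) ≠ 0 := I_ne_zero
    field_simp
    linear_combination I_sq
  rw [hI]
  linear_combination (1 / 2 : ℂ) * (1 : Matrix (D × D) (D × D) ℂ) i j * I_sq

theorem two_sub_Rh_eq (c s : ℝ) (h : c ^ 2 + s ^ 2 = 1) :
    (2 : ℂ) • (1 : Matrix (D × D) (D × D) ℂ) - Z.Rh c s =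
      (1 / 2 : ℂ) • ((1 + I • Z.E c s) * (1 + I • Z.E c s)ᴴ) := by
  unfold Rh
  rw [conjTranspose_add, conjTranspose_one, conjTranspose_smul, Matrix.add_mul, Matrix.mul_add,
    Matrix.mul_add, Matrix.smul_mul, Matrix.mul_smul, Matrix.smul_mul, Matrix.mul_smul,
    Z.E_conj c s h, Matrix.one_mul, Matrix.mul_one, Matrix.one_mul]
  ext i j
  simp only [Matrix.add_apply, Matrix.smul_apply, Matrix.sub_apply, smul_eq_mul,
    RCLike.star_def, conj_I]
  have hI : (1 : ℂ) / (2 * I) = -I / 2 := by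
    have : (I : ℂ) ≠ 0 := I_ne_zero
    field_simp
    linear_combination I_sq
  rw [hI]
  linear_combination (1 / 2 : ℂ) * (1 : Matrix (D × D) (D × D) ℂ) i j * I_sq

theorem Rh_psd (c s : ℝ) (h : c ^ 2 + s ^ 2 = 1) : (Z.Rh c s).PosSemidef := by
  rw [Z.Rh_eq c s h]
  exact (posSemidef_self_mul_conjTranspose _).smul half_nonneg'

theorem two_sub_Rh_psd (c s : ℝ) (h : c ^ 2 + s ^ 2 = 1) :
    ((2 : ℂ) • (1 : Matrix (D × D) (D × D) ℂ) - Z.Rh c s).PosSemidef := by
  rw [Z.two_sub_Rh_eq c s h]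
  exact (posSemidef_self_mul_conjTranspose _).smul half_nonneg'

end Cl

end Vale.Agent.P372.H507
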