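import Vale.Agent.P372.H507.NotSep
import Vale.Agent.P372.H399.FmDefs

/-!
# The Pauli instance
-/

set_option autoImplicit false
set_option linter.unusedSectionVars false

namespace Vale.Agent.P372.H507

open Matrix Kronecker
open scoped ComplexOrder
open Vale.Agent.P372.Fm

theorem zm2 (x : ZMod 2) : x = 0 ∨ x = 1 := by
  fin_cases x
  · exact Or.inl rfl
  · exact Or.inr rfl

theorem sg_zero : sg 0 = 1 := by simp [sg]

theorem sg_one : sg 1 = -1 := by simp [sg]

theorem sg_add (x y : ZMod 2) : sg (x + y) = sg x * sg y := by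
  rcases zm2 x with rfl | rfl <;> rcases zm2 y with rfl | rfl
  · simp [sg_zero]
  · simp [sg_zero]
  · simp [sg_zero]
  · rw [show (1 : ZMod 2) + 1 = 0 from rfl, sg_zero, sg_one]
    norm_num

theorem sg_mul_self (x : ZMod 2) : sg x * sg x = 1 := by
  rcases zm2 x with rfl | rfl
  · simp [sg_zero]
  · simp [sg_one]

theorem sgc_mul_self (x : ZMod 2) : (sg x : ℂ) * (sg x : ℂ) = 1 := by
  exact_mod_cast sg_mul_self x

variable {m : ℕ}

theorem v_add_self (v : V m) : v + v = 0 := by
  funext i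
  exact CharTwo.add_self_eq_zero (v i)

theorem eq_add_iff {u v w : V m} : u = v + w ↔ v = u + w := by
  constructor
  · rintro rfl
    rw [add_assoc, v_add_self, add_zero]
  · rintro rfl
    rw [add_assoc, v_add_self, add_zero]

/-- transposition of the real Pauli matrices -/
theorem pl_swap (g : V m × V m) (u v : V m) :
    pl g v u = (sg (g.2 ⬝ᵥ g.1) : ℂ) * pl g u v := by
  unfold pl
  by_cases h : u = v + g.1
  · rw [if_pos h, if_pos (eq_add_iff.mp h), h, dotProduct_add, sg_add, Complex.ofReal_mul]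
    ring
  · rw [if_neg h, if_neg (fun h' => h (eq_add_iff.mpr h')), mul_zero]

theorem pl_star (g : V m × V m) (u v : V m) : star (pl g u v) = pl g u v := by
  unfold pl
  split_ifs
  · simp
  · simp

theorem pl_transpose (g : V m × V m) (h : g.2 ⬝ᵥ g.1 = 0) : (pl g)ᵀ = pl g := by
  ext u v
  rw [transpose_apply, pl_swap, h, sg_zero]
  simp

theorem pl_herm (g : V m × V m) (h : g.2 ⬝ᵥ g.1 = 0) : (pl g)ᴴ = pl g := by
  ext u v
  rw [conjTranspose_apply, pl_star, pl_swap, h, sg_zero]
  simp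

theorem pl_mul (g h : V m × V m) :
    pl g * pl h = (sg (g.2 ⬝ᵥ h.1) : ℂ) • pl (g + h) := by
  ext u w
  rw [Matrix.mul_apply, Matrix.smul_apply, Finset.sum_eq_single (w + h.1)]
  · unfold pl
    rw [if_pos rfl]
    by_cases e : u = w + h.1 + g.1
    · have e' : u = w + (g + h).1 := by
        rw [e, Prod.fst_add]
        abel
      rw [if_pos e, if_pos e', dotProduct_add, sg_add, Prod.snd_add, add_dotProduct, sg_add]
      push_cast
      rw [smul_eq_mul]
      ring
    · have e' : ¬ u = w + (g + h).1 := by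
        intro e'
        apply e
        rw [e', Prod.fst_add]
        abel
      rw [if_neg e, if_neg e', zero_mul, smul_zero]
  · intro v _ hv
    unfold pl
    rw [if_neg (show ¬ v = w + h.1 from hv), mul_zero]
  · intro hh
    exact absurd (Finset.mem_univ _) hh

theorem pl_zero : pl (0 : V m × V m) = 1 := by
  ext u v
  unfold pl
  rw [Matrix.one_apply]
  by_cases h : u = v
  · rw [if_pos h, if_pos (by rw [Prod.fst_zero, add_zero]; exact h), Prod.snd_zero,
      zero_dotProduct, sg_zero, Complex.ofReal_one]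
  · rw [if_neg h, if_neg (by rw [Prod.fst_zero, add_zero]; exact h)]

/-- the label of the generator `a` -/
def lb (m : ℕ) (a : Fin m) : V m × V m := (Pi.single a 1, fun k => if k < a then 1 else 0)

theorem lb_dot (a b : Fin m) : (lb m a).2 ⬝ᵥ (lb m b).1 = if b < a then 1 else 0 := by
  unfold lb
  simp

theorem lb_self (a : Fin m) : (lb m a).2 ⬝ᵥ (lb m a).1 = 0 := by
  rw [lb_dot, if_neg (lt_irrefl a)]

/-- the generators -/
noncomputable def gen (m : ℕ) : Cl m (V m) where
  z a := pl (lb m a)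
  herm a := pl_herm _ (lb_self a)
  sq a := by
    have h : lb m a + lb m a = 0 := by
      rw [Prod.ext_iff]
      exact ⟨v_add_self _, v_add_self _⟩
    rw [pl_mul, lb_self, h, pl_zero, sg_zero]
    simp
  anti a b h := by
    rw [pl_mul, pl_mul, lb_dot, lb_dot, add_comm (lb m b)]
    rcases lt_or_gt_of_ne h with h1 | h1
    · rw [if_neg (not_lt_of_gt h1), if_pos h1, sg_zero, sg_one]
      simp
    · rw [if_pos h1, if_neg (not_lt_of_gt h1), sg_zero, sg_one]
      simp

/-! ### the noise -/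

/-- the sum of a nontrivial character -/
theorem sum_sg (c : V m) (hc : c ≠ 0) : ∑ v : V m, sg (c ⬝ᵥ v) = 0 := by
  obtain ⟨k, hk⟩ : ∃ k, c k ≠ 0 := by
    by_contra h
    push Not at h
    exact hc (funext h)
  have hk1 : c k = 1 := (zm2 (c k)).resolve_left hk
  have h1 : ∑ v : V m, sg (c ⬝ᵥ v) = ∑ v : V m, sg (c ⬝ᵥ (v + Pi.single k 1)) :=
    (Equiv.sum_comp (Equiv.addRight (Pi.single k (1 : ZMod 2) : V m))
      (fun v => sg (c ⬝ᵥ v))).symm
  have h2 : ∀ v : V m, sg (c ⬝ᵥ (v + Pi.single k 1)) = - sg (c ⬝ᵥ v) := by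
    intro v
    rw [dotProduct_add, sg_add, dotProduct_single, hk1, mul_one, sg_one]
    ring
  simp only [h2] at h1
  rw [Finset.sum_neg_distrib] at h1
  linarith

theorem sum_pl_pl (g h : V m × V m) :
    ∑ p, ∑ q, pl g p q * pl h p q = if g = h then (2 : ℂ) ^ m else 0 := by
  rw [Finset.sum_comm]
  by_cases h1 : g.1 = h.1
  · have e : ∀ q : V m, ∑ p, pl g p q * pl h p q = ((sg ((g.2 + h.2) ⬝ᵥ q) : ℝ) : ℂ) := by
      intro q
      rw [Finset.sum_eq_single (q + g.1)]
      · unfold pl
        rw [if_pos rfl, if_pos (by rw [h1]), add_dotProduct, sg_add]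
        push_cast
        rfl
      · intro p _ hp
        unfold pl
        rw [if_neg hp, zero_mul]
      · intro hh
        exact absurd (Finset.mem_univ _) hh
    simp only [e]
    rw [← Complex.ofReal_sum]
    by_cases h2 : g.2 = h.2
    · have hgh : g = h := Prod.ext h1 h2
      rw [if_pos hgh, h2, v_add_self]
      simp [sg_zero, ZMod.card]
    · have hgh : ¬ g = h := fun hh => h2 (by rw [hh])
      rw [if_neg hgh, sum_sg, Complex.ofReal_zero]
      intro h3
      apply h2
      have := congrArg (· + h.2) h3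
      simpa [add_assoc, v_add_self] using this
  · have hgh : ¬ g = h := fun hh => h1 (by rw [hh])
    rw [if_neg hgh]
    refine Finset.sum_eq_zero fun q _ => Finset.sum_eq_zero fun p _ => ?_
    unfold pl
    by_cases h2 : p = q + g.1
    · rw [if_neg (show ¬ p = q + h.1 from fun h3 => h1 (by
        rw [h2] at h3
        exact add_left_cancel h3)), mul_zero]
    · rw [if_neg h2, zero_mul]

/-- the kernel on the pair of systems -/
noncomputable def kk (m : ℕ) (p q i j : V m × V m) : ℂ :=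
  tk m p.1 q.1 i.1 j.1 * tk m p.2 q.2 i.2 j.2

theorem ap_tk_pl (h : V m × V m) : ap (tk m) (pl h) = (mu h : ℂ) • pl h := by
  ext i j
  unfold ap tk
  rw [Matrix.smul_apply, smul_eq_mul]
  calc ∑ p, ∑ q, ((2 : ℂ) ^ m)⁻¹ * (∑ g : V m × V m, (mu g : ℂ) * pl g p q * pl g i j) * pl h p q
      = ∑ p, ∑ q, ∑ g : V m × V m, (((2 : ℂ) ^ m)⁻¹ * mu g * pl g i j) * (pl g p q * pl h p q) := by
        refine Finset.sum_congr rfl fun p _ => Finset.sum_congr rfl fun q _ => ?_
        rw [Finset.mul_sum, Finset.sum_mul]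
        refine Finset.sum_congr rfl fun g _ => ?_
        ring
    _ = ∑ g : V m × V m, (((2 : ℂ) ^ m)⁻¹ * mu g * pl g i j) * ∑ p, ∑ q, pl g p q * pl h p q := by
        have e1 : ∀ p : V m, ∑ q, ∑ g : V m × V m,
            (((2 : ℂ) ^ m)⁻¹ * mu g * pl g i j) * (pl g p q * pl h p q) =
            ∑ g : V m × V m, ∑ q, (((2 : ℂ) ^ m)⁻¹ * mu g * pl g i j) * (pl g p q * pl h p q) :=
          fun p => Finset.sum_comm
        simp only [e1]
        rw [Finset.sum_comm]
        refine Finset.sum_congr rfl fun g _ => ?_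
        simp only [Finset.mul_sum]
    _ = (mu h : ℂ) * pl h i j := by
        rw [Finset.sum_eq_single h]
        · rw [sum_pl_pl, if_pos rfl]
          have : (2 : ℂ) ^ m ≠ 0 := pow_ne_zero _ two_ne_zero
          field_simp
        · intro g _ hg
          rw [sum_pl_pl, if_neg hg, mul_zero]
        · intro hh
          exact absurd (Finset.mem_univ _) hh

theorem tk_swap (p q i j : V m) : tk m p q i j = tk m j i q p := by
  unfold tk
  congr 1
  refine Finset.sum_congr rfl fun g _ => ?_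
  rw [pl_swap g i j, pl_swap g p q]
  have := sgc_mul_self (g.2 ⬝ᵥ g.1)
  linear_combination (-(mu g : ℂ) * pl g p q * pl g i j) * this

theorem kk_swap (p q i j : V m × V m) : kk m p q i j = kk m j i q p := by
  unfold kk
  rw [tk_swap p.1, tk_swap p.2]

theorem ap_dual {I : Type} [Fintype I] (t : I → I → I → I → ℂ)
    (ht : ∀ p q i j, t p q i j = t j i q p) (X Y : Matrix I I ℂ) :
    (ap t X * Y).trace = (X * ap t Y).trace := by
  simp only [Matrix.trace, Matrix.diag_apply, Matrix.mul_apply, ap, Finset.sum_mul,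
    Finset.mul_sum]
  calc ∑ i, ∑ j, ∑ p, ∑ q, t p q i j * X p q * Y j i
      = ∑ i, ∑ p, ∑ j, ∑ q, t p q i j * X p q * Y j i :=
        Finset.sum_congr rfl fun i _ => Finset.sum_comm
    _ = ∑ p, ∑ i, ∑ j, ∑ q, t p q i j * X p q * Y j i := Finset.sum_comm
    _ = ∑ p, ∑ i, ∑ q, ∑ j, t p q i j * X p q * Y j i :=
        Finset.sum_congr rfl fun p _ => Finset.sum_congr rfl fun i _ => Finset.sum_comm
    _ = ∑ p, ∑ q, ∑ i, ∑ j, t p q i j * X p q * Y j i :=
        Finset.sum_congr rfl fun p _ => Finset.sum_comm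
    _ = ∑ p, ∑ q, ∑ j, ∑ i, t p q i j * X p q * Y j i :=
        Finset.sum_congr rfl fun p _ => Finset.sum_congr rfl fun q _ => Finset.sum_comm
    _ = _ := by
        refine Finset.sum_congr rfl fun p _ => Finset.sum_congr rfl fun q _ =>
          Finset.sum_congr rfl fun j _ => Finset.sum_congr rfl fun i _ => ?_
        rw [ht p q i j]
        ring

theorem sum4 {I J : Type} [Fintype I] [Fintype J] (f : I → I → ℂ) (g : J → J → ℂ) :
    ∑ p : I × J, ∑ q : I × J, f p.1 q.1 * g p.2 q.2 = (∑ p, ∑ q, f p q) * ∑ p, ∑ q, g p q := by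
  simp only [Fintype.sum_prod_type]
  calc ∑ a, ∑ b, ∑ c, ∑ d, f a c * g b d = ∑ a, ∑ c, ∑ b, ∑ d, f a c * g b d :=
        Finset.sum_congr rfl fun _ _ => Finset.sum_comm
    _ = ∑ a, ∑ c, f a c * ∑ b, ∑ d, g b d := by
        refine Finset.sum_congr rfl fun _ _ => Finset.sum_congr rfl fun _ _ => ?_
        simp only [Finset.mul_sum]
    _ = _ := by
        simp only [Finset.sum_mul]

theorem ap_kk_kron (X Y : Matrix (V m) (V m) ℂ) :
    ap (kk m) (X ⊗ₖ Y) = ap (tk m) X ⊗ₖ ap (tk m) Y := by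
  ext i j
  rw [kroneckerMap_apply]
  unfold ap
  rw [← sum4 (fun p q => tk m p q i.1 j.1 * X p q) (fun p q => tk m p q i.2 j.2 * Y p q)]
  refine Finset.sum_congr rfl fun p _ => Finset.sum_congr rfl fun q _ => ?_
  rw [kk, kroneckerMap_apply]
  ring

theorem mu_zero : mu (0 : V m × V m) = 1 := by
  unfold mu cw
  simp [pw]

theorem mu_lb (a : Fin m) : mu (lb m a) = 1 / 3 := by
  have h3 : (√3 : ℝ)⁻¹ * (√3)⁻¹ = 1 / 3 := by
    rw [← mul_inv, Real.mul_self_sqrt (by norm_num)]
    norm_num
  have h1 : ∑ j, (lb m a).1 j = 1 := by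
    unfold lb
    simp
  have h2 : ∀ j, cw (lb m a) j = 0 := by
    intro j
    unfold cw lb
    have : ∑ k, (if j < k then (Pi.single a (1 : ZMod 2) : V m) k else 0) =
        if j < a then 1 else 0 := by
      rw [Finset.sum_eq_single a]
      · simp
      · intro k _ hk
        simp [Pi.single_eq_of_ne hk]
      · intro hh
        exact absurd (Finset.mem_univ _) hh
    rw [this]
    by_cases h : j < a
    · simp only [h, if_true]
      rfl
    · simp only [h, if_false, add_zero]
  unfold mu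
  rw [h1]
  simp only [h2, add_zero]
  have e0 : pw 0 = 1 := by simp [pw]
  have e1 : pw 1 = (√3)⁻¹ := by simp [pw]
  rw [e0, e1, Finset.prod_eq_single a]
  · have : (lb m a).1 a = 1 := by simp [lb]
    rw [this, e1, mul_one, h3]
  · intro j _ hj
    have : (lb m a).1 j = 0 := by simp [lb, Pi.single_eq_of_ne hj]
    rw [this, e0, mul_one]
  · intro hh
    exact absurd (Finset.mem_univ _) hh

theorem ap_kk_one : ap (kk m) 1 = 1 := by
  rw [← one_kronecker_one, ap_kk_kron, ← pl_zero, ap_tk_pl, mu_zero]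
  simp

theorem ap_kk_q (a : Fin m) : ap (kk m) ((gen m).q a) = (1 / 9 : ℂ) • (gen m).q a := by
  have h : (gen m).q a = pl (lb m a) ⊗ₖ pl (lb m a) := by
    unfold Cl.q
    change pl (lb m a) ⊗ₖ (pl (lb m a))ᵀ = _
    rw [pl_transpose _ (lb_self a)]
  rw [h, ap_kk_kron, ap_tk_pl, mu_lb, smul_kronecker, kronecker_smul, smul_smul]
  congr 1
  push_cast
  norm_num

theorem ap_kk_dual (X Y : Matrix (V m × V m) (V m × V m) ℂ) :
    (ap (kk m) X * Y).trace = (X * ap (kk m) Y).trace := ap_dual _ kk_swap X Y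

/-- the operator, before the last smoothing -/
noncomputable def opRh : Matrix (V 3600 × V 3600) (V 3600 × V 3600) ℂ := (gen 3600).Rh cs sn

/-- the operator -/
noncomputable def opR : Matrix (V 3600 × V 3600) (V 3600 × V 3600) ℂ :=
  ap (kk 3600) ((2 / 3 : ℂ) • 1 + (1 / 3 : ℂ) • opRh)

theorem opR_not_isSep : ¬ IsSep opR :=
  not_isSep_num (gen 3600) (ap (kk 3600)) ap_kk_dual ap_kk_one ap_kk_q

theorem opRh_psd : opRh.PosSemidef := (gen 3600).Rh_psd cs sn cs_sn

theorem two_sub_opRh_psd :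
    ((2 : ℂ) • (1 : Matrix (V 3600 × V 3600) (V 3600 × V 3600) ℂ) - opRh).PosSemidef :=
  (gen 3600).two_sub_Rh_psd cs sn cs_sn

end Vale.Agent.P372.H507
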