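import Vale.Agent.P372.H507.Ent

/-!
# A bound for separable operators
-/

set_option autoImplicit false
set_option linter.unusedSectionVars false

namespace Vale.Agent.P372.H507

open Matrix Kronecker Complex
open scoped ComplexOrder

variable {N : ℕ} {D : Type} [Fintype D] [DecidableEq D] (Z : Cl N D)

namespace Cl

/-- the transposed family -/
def tp : Cl N D where
  z a := (Z.z a)ᵀ
  herm a := Z.tr_herm a
  sq a := by rw [← transpose_mul, Z.sq, transpose_one]
  anti a b h := by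
    rw [← transpose_mul, ← transpose_mul, Z.anti b a (Ne.symm h), transpose_neg]

/-- the real combination of the generators -/
def comb (x : Fin N → ℝ) : Matrix D D ℂ := ∑ a, (x a : ℂ) • Z.z a

theorem comb_herm (x : Fin N → ℝ) : (Z.comb x)ᴴ = Z.comb x := by
  unfold comb
  rw [conjTranspose_sum]
  refine Finset.sum_congr rfl fun a _ => ?_
  rw [conjTranspose_smul, Z.herm]
  simp

theorem comb_sq (x : Fin N → ℝ) :
    Z.comb x * Z.comb x = ((∑ a, x a ^ 2 : ℝ) : ℂ) • (1 : Matrix D D ℂ) := by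
  have h1 : Z.comb x * Z.comb x = ∑ a, ∑ b, ((x a : ℂ) * x b) • (Z.z a * Z.z b) := by
    unfold comb
    rw [Finset.sum_mul]
    refine Finset.sum_congr rfl fun a _ => ?_
    rw [Finset.mul_sum]
    refine Finset.sum_congr rfl fun b _ => ?_
    rw [Matrix.smul_mul, Matrix.mul_smul, smul_smul]
  have h2 : Z.comb x * Z.comb x = ∑ a, ∑ b, ((x a : ℂ) * x b) • (Z.z b * Z.z a) := by
    rw [h1, Finset.sum_comm]
    refine Finset.sum_congr rfl fun a _ => Finset.sum_congr rfl fun b _ => ?_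
    rw [mul_comm (x b : ℂ)]
  have h3 : Z.comb x * Z.comb x + Z.comb x * Z.comb x =
      (2 * ((∑ a, x a ^ 2 : ℝ) : ℂ)) • (1 : Matrix D D ℂ) := by
    nth_rw 1 [h1]
    rw [h2, ← Finset.sum_add_distrib]
    have : ∀ a, (∑ b, ((x a : ℂ) * x b) • (Z.z a * Z.z b) +
        ∑ b, ((x a : ℂ) * x b) • (Z.z b * Z.z a)) =
        (2 * ((x a ^ 2 : ℝ) : ℂ)) • (1 : Matrix D D ℂ) := by
      intro a
      rw [← Finset.sum_add_distrib, Finset.sum_eq_single a]
      · rw [Z.sq, ← add_smul]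
        congr 1
        push_cast
        ring
      · intro b _ hb
        rw [← smul_add, Z.anti a b (Ne.symm hb), neg_add_cancel, smul_zero]
      · intro h
        exact absurd (Finset.mem_univ a) h
    simp only [this]
    rw [← Finset.sum_smul, ← Finset.mul_sum]
    push_cast
    rfl
  have h4 : (2 : ℂ) • (Z.comb x * Z.comb x) =
      (2 : ℂ) • (((∑ a, x a ^ 2 : ℝ) : ℂ) • (1 : Matrix D D ℂ)) := by
    rw [two_smul, h3, smul_smul]
  exact smul_right_injective _ (two_ne_zero (α := ℂ)) h4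

theorem trace_im {M w : Matrix D D ℂ} (hM : Mᴴ = M) (hw : wᴴ = w) : (M * w).trace.im = 0 := by
  have h : star (M * w).trace = (M * w).trace := by
    rw [← trace_conjTranspose, conjTranspose_mul, hM, hw, trace_mul_comm]
  have h2 := congrArg Complex.im h
  simp only [RCLike.star_def, conj_im] at h2
  linarith

theorem sum_sq_le {M : Matrix D D ℂ} (hM : M.PosSemidef) :
    ∑ a, ((M * Z.z a).trace.re) ^ 2 ≤ M.trace.re ^ 2 := by
  set x : Fin N → ℝ := fun a => (M * Z.z a).trace.re with hx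
  set U : ℝ := ∑ a, x a ^ 2 with hU
  set t : ℝ := M.trace.re with ht
  have hc : (M * Z.comb x).trace.re = U := by
    unfold comb
    rw [Finset.mul_sum, trace_sum, Complex.re_sum, hU]
    refine Finset.sum_congr rfl fun a _ => ?_
    rw [Matrix.mul_smul, trace_smul, smul_eq_mul, Complex.re_ofReal_mul, hx]
    ring
  have key : ∀ l : ℝ, 0 ≤ l ^ 2 * t - 2 * l * U + U * t := by
    intro l
    have h1 : 0 ≤ (M * (((l : ℂ) • (1 : Matrix D D ℂ) - Z.comb x) *
        ((l : ℂ) • (1 : Matrix D D ℂ) - Z.comb x)ᴴ)).trace := by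
      have h2 := (hM.conjTranspose_mul_mul_same ((l : ℂ) • (1 : Matrix D D ℂ) - Z.comb x)).trace_nonneg
      rw [trace_mul_comm, ← Matrix.mul_assoc, trace_mul_comm] at h2
      exact h2
    have h3 : ((l : ℂ) • (1 : Matrix D D ℂ) - Z.comb x)ᴴ =
        (l : ℂ) • (1 : Matrix D D ℂ) - Z.comb x := by
      rw [conjTranspose_sub, conjTranspose_smul, conjTranspose_one, Z.comb_herm]
      simp
    have h4 : ((l : ℂ) • (1 : Matrix D D ℂ) - Z.comb x) *
        ((l : ℂ) • (1 : Matrix D D ℂ) - Z.comb x) =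
        ((l ^ 2 + U : ℝ) : ℂ) • (1 : Matrix D D ℂ) - ((2 * l : ℝ) : ℂ) • Z.comb x := by
      rw [Matrix.sub_mul, Matrix.mul_sub, Matrix.mul_sub, Z.comb_sq, ← hU]
      simp only [Matrix.smul_mul, Matrix.mul_smul, Matrix.one_mul, Matrix.mul_one]
      ext i j
      simp only [Matrix.sub_apply, Matrix.smul_apply, smul_eq_mul]
      push_cast
      ring
    rw [h3, h4, Matrix.mul_sub, Matrix.mul_smul, Matrix.mul_smul, Matrix.mul_one, trace_sub,
      trace_smul, trace_smul] at h1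
    have h5 := (Complex.le_def.mp h1).1
    rw [Complex.sub_re, smul_eq_mul, smul_eq_mul, Complex.re_ofReal_mul, Complex.re_ofReal_mul, hc,
      ← ht] at h5
    simp only [Complex.zero_re] at h5
    linarith
  have ht0 : 0 ≤ t := (Complex.le_def.mp hM.trace_nonneg).1
  rcases ht0.eq_or_lt with h0 | h0
  · have := key 1
    rw [← h0] at this ⊢
    have h2 : 0 ≤ U := Finset.sum_nonneg fun a _ => sq_nonneg _
    nlinarith
  · have := key t
    have h2 : 0 ≤ t * (t ^ 2 - U) := by linarith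
    have h3 := nonneg_of_mul_nonneg_right h2 h0
    linarith

theorem trace_kron_q {M : Matrix D D ℂ} (P : Matrix D D ℂ) (hM : M.PosSemidef) (a : Fin N) :
    ((M ⊗ₖ P) * Z.q a).trace.re = (M * Z.z a).trace.re * (P * (Z.z a)ᵀ).trace.re := by
  unfold q
  rw [← mul_kronecker_mul, trace_kronecker, Complex.mul_re,
    trace_im hM.1.eq (Z.herm a)]
  ring

theorem prod_le {M P : Matrix D D ℂ} (hM : M.PosSemidef) (hP : P.PosSemidef) :
    ∑ a, ((M ⊗ₖ P) * Z.q a).trace.re ≤ (M ⊗ₖ P).trace.re := by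
  have h1 := Z.sum_sq_le hM
  have h2 := Z.tp.sum_sq_le hP
  have h3 : ∑ a, ((M ⊗ₖ P) * Z.q a).trace.re =
      ∑ a, (M * Z.z a).trace.re * (P * (Z.z a)ᵀ).trace.re :=
    Finset.sum_congr rfl fun a _ => Z.trace_kron_q (P) hM a
  have h4 : (M ⊗ₖ P).trace.re = M.trace.re * P.trace.re := by
    rw [trace_kronecker, Complex.mul_re]
    have h5 : M.trace.im = 0 := by
      have := (Complex.le_def.mp hM.trace_nonneg).2
      simpa using this.symm
    rw [h5]
    ring
  have ht : 0 ≤ M.trace.re := (Complex.le_def.mp hM.trace_nonneg).1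
  have hp : 0 ≤ P.trace.re := (Complex.le_def.mp hP.trace_nonneg).1
  rw [h3, h4]
  have h6 := Finset.sum_mul_sq_le_sq_mul_sq Finset.univ (fun a => (M * Z.z a).trace.re)
    (fun a => (P * (Z.z a)ᵀ).trace.re)
  have h7 : (∑ a, (M * Z.z a).trace.re ^ 2) * (∑ a, (P * (Z.z a)ᵀ).trace.re ^ 2) ≤
      M.trace.re ^ 2 * P.trace.re ^ 2 :=
    mul_le_mul h1 h2 (Finset.sum_nonneg fun a _ => sq_nonneg _) (sq_nonneg _)
  have h8 := h6.trans h7
  rw [← mul_pow] at h8
  exact le_of_sq_le_sq' h8 (mul_nonneg ht hp)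
where
  le_of_sq_le_sq' {x y : ℝ} (h : x ^ 2 ≤ y ^ 2) (hy : 0 ≤ y) : x ≤ y := by
    exact (le_abs_self x).trans ((sq_le_sq.mp h).trans_eq (abs_of_nonneg hy))

/-- a separable operator obeys the bound -/
theorem sep_le {R : Matrix (D × D) (D × D) ℂ} (h : IsSep R) :
    ∑ a, (R * Z.q a).trace.re ≤ R.trace.re := by
  obtain ⟨n, M, P, hM, hP, rfl⟩ := h
  have h1 : ∑ a, ((∑ k, M k ⊗ₖ P k) * Z.q a).trace.re =
      ∑ k, ∑ a, ((M k ⊗ₖ P k) * Z.q a).trace.re := by
    rw [Finset.sum_comm]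
    refine Finset.sum_congr rfl fun a _ => ?_
    rw [Finset.sum_mul, trace_sum, Complex.re_sum]
  rw [h1, trace_sum, Complex.re_sum]
  exact Finset.sum_le_sum fun k _ => Z.prod_le (hM k) (hP k)

end Cl

end Vale.Agent.P372.H507
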