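import Vale.Agent.P372.H507.Socket
import Vale.Agent.P372.H897.SN
import Vale.Agent.P372.Swap.Link2

/-!
# The operator in the form of the final assembly, second file
-/

set_option autoImplicit false
set_option linter.unusedSectionVars false

namespace Vale.Agent.P372.H507

open Matrix Kronecker
open scoped ComplexOrder
open Vale.Agent.P372.Fm

theorem opRh_trace : opRh.trace = (Fintype.card (V 3600 × V 3600) : ℂ) :=
  (gen 3600).trace_Rh ⟨1800, rfl⟩ cs sn

/-- one step of the noise on a pair, kernel of 897 -/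
theorem opR_eq' : opR = (2 / 3 : ℂ) • 1 +
    (1 / 3 : ℂ) • H897.ap (H897.kt (H897.tk 3600) (H897.tk 3600)) opRh := by
  rw [opR_eq, ← H897.fm_tk, ap_eq, ← kk_eq]

/-- the second socket with the trace, action of 399 -/
theorem socketE_tr : ∃ (m : ℕ) (Rh : Matrix (V m × V m) (V m × V m) ℂ), Rh.PosSemidef ∧
    ((2 : ℂ) • 1 - Rh).PosSemidef ∧ Rh.trace = (Fintype.card (V m × V m) : ℂ) ∧
    ¬ IsSep ((2 / 3 : ℂ) • 1 + (1 / 3 : ℂ) • ap (kk m) Rh) := by
  refine ⟨3600, opRh, opRh_psd, two_sub_opRh_psd, opRh_trace, ?_⟩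
  rw [← opR_eq]
  exact opR_not_isSep

/-- the second socket with the trace, action and kernel of 897 -/
theorem socketE_tr' : ∃ (m : ℕ) (Rh : Matrix (V m × V m) (V m × V m) ℂ), Rh.PosSemidef ∧
    ((2 : ℂ) • 1 - Rh).PosSemidef ∧ Rh.trace = (Fintype.card (V m × V m) : ℂ) ∧
    ¬ IsSep ((2 / 3 : ℂ) • 1 +
      (1 / 3 : ℂ) • H897.ap (H897.kt (H897.tk m) (H897.tk m)) Rh) := by
  refine ⟨3600, opRh, opRh_psd, two_sub_opRh_psd, opRh_trace, ?_⟩
  rw [← opR_eq']
  exact opR_not_isSep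

theorem third_nonneg : (0 : ℂ) ≤ 1 / 3 := by
  rw [Complex.le_def]
  norm_num

theorem two_thirds_nonneg : (0 : ℂ) ≤ 2 / 3 := by
  rw [Complex.le_def]
  norm_num

/-- the operator of a general `Rh` is positive semidefinite -/
theorem op_psd {m : ℕ} {Rh : Matrix (V m × V m) (V m × V m) ℂ} (h : Rh.PosSemidef) :
    ((2 / 3 : ℂ) • (1 : Matrix (V m × V m) (V m × V m) ℂ) +
      (1 / 3 : ℂ) • H897.ap (H897.kt (H897.tk m) (H897.tk m)) Rh).PosSemidef :=
  (PosSemidef.one.smul two_thirds_nonneg).add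
    ((H897.ap_psd ((H897.SF_tk m).kt (H897.SF_tk m)).choi h).smul third_nonneg)

theorem op_psd' {m : ℕ} {Rh : Matrix (V m × V m) (V m × V m) ℂ} (h : Rh.PosSemidef) :
    ((2 / 3 : ℂ) • (1 : Matrix (V m × V m) (V m × V m) ℂ) +
      (1 / 3 : ℂ) • ap (kk m) Rh).PosSemidef := by
  have h1 := op_psd h
  rw [← H897.fm_tk, ap_eq, ← kk_eq] at h1
  exact h1

theorem opR_psd : opR.PosSemidef := by
  rw [opR_eq']
  exact op_psd opRh_psd

theorem tpow_opR_psd (n : ℕ) : (tpow n opR).PosSemidef := Swap.tpow_psd n opR_psd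

end Vale.Agent.P372.H507
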